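import Vale.Agent.P088.MathlibUsed

/-!
P088, row SOLV (helper673): limits in `L²`.
-/

open MeasureTheory Filter Topology

namespace Vale.Agent.P088.DM.H673

variable {α F : Type*} [MeasurableSpace α] [NormedAddCommGroup F] {μ : Measure α}

theorem eLpNorm_sq {f : α → F} (hf : MemLp f 2 μ) :
    eLpNorm f 2 μ = ENNReal.ofReal (√(∫ x, ‖f x‖ ^ 2 ∂μ)) := by
  have h := hf.eLpNorm_eq_integral_rpow_norm (by norm_num) (by norm_num)
  rw [h]
  congr 1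
  rw [Real.sqrt_eq_rpow]
  norm_num

theorem int_sq {f : α → F} (hf : MemLp f 2 μ) :
    ∫ x, ‖f x‖ ^ 2 ∂μ = (eLpNorm f 2 μ).toReal ^ 2 := by
  rw [eLpNorm_sq hf, ENNReal.toReal_ofReal (Real.sqrt_nonneg _), Real.sq_sqrt]
  exact integral_nonneg fun x => by positivity

/-- `L²` is complete. -/
theorem exists_lim [CompleteSpace F] (φ : ℕ → α → F) (hφ : ∀ k, MemLp (φ k) 2 μ)
    (hC : ∀ ε : ℝ, 0 < ε → ∃ K : ℕ, ∀ k ≥ K, ∀ l ≥ K, ∫ x, ‖φ k x - φ l x‖ ^ 2 ∂μ ≤ ε) :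
    ∃ w : α → F, MemLp w 2 μ ∧
      Tendsto (fun k => ∫ x, ‖φ k x - w x‖ ^ 2 ∂μ) atTop (𝓝 0) := by
  have hcs : CauchySeq fun k => (hφ k).toLp (φ k) := by
    refine Metric.cauchySeq_iff.2 fun ε hε => ?_
    obtain ⟨K, hK⟩ := hC (ε ^ 2 / 4) (by positivity)
    refine ⟨K, fun k hk l hl => ?_⟩
    have h1 := hK k hk l hl
    rw [Lp.dist_edist, Lp.edist_toLp_toLp, eLpNorm_sq ((hφ k).sub (hφ l)),
      ENNReal.toReal_ofReal (Real.sqrt_nonneg _)]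
    simp only [Pi.sub_apply]
    calc √(∫ x, ‖φ k x - φ l x‖ ^ 2 ∂μ) ≤ √(ε ^ 2 / 4) := Real.sqrt_le_sqrt h1
      _ = ε / 2 := by
        rw [show ε ^ 2 / 4 = (ε / 2) ^ 2 by ring, Real.sqrt_sq (by positivity)]
      _ < ε := by linarith
  obtain ⟨g, hg⟩ := cauchySeq_tendsto_of_complete hcs
  refine ⟨g, Lp.memLp g, ?_⟩
  have h1 : Tendsto (fun k => dist ((hφ k).toLp (φ k)) g) atTop (𝓝 0) :=
    tendsto_iff_dist_tendsto_zero.1 hg
  have h2 := h1.pow 2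
  rw [zero_pow two_ne_zero] at h2
  refine h2.congr fun k => ?_
  have h3 : dist ((hφ k).toLp (φ k)) g = (eLpNorm (fun x => φ k x - g x) 2 μ).toReal := by
    rw [dist_eq_norm, Lp.norm_def]
    congr 1
    refine eLpNorm_congr_ae ?_
    filter_upwards [Lp.coeFn_sub ((hφ k).toLp (φ k)) g, (hφ k).coeFn_toLp] with x hx hx'
    rw [hx, Pi.sub_apply, hx']
  rw [h3]
  exact (int_sq ((hφ k).sub (Lp.memLp g))).symm

end Vale.Agent.P088.DM.H673
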