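import Vale.Agent.P088.R2.H673.DM.L2

/-!
P088, row SOLV (helper673): products and norms of limits in `L²`.
-/

open MeasureTheory Filter Topology

namespace Vale.Agent.P088.DM.H673

variable {α F G H : Type*} [MeasurableSpace α] [NormedAddCommGroup F] [NormedAddCommGroup G]
  [NormedAddCommGroup H] {μ : Measure α}

theorem int_mul {f : α → F} {g : α → G} (hf : MemLp f 2 μ) (hg : MemLp g 2 μ) :
    Integrable (fun x => ‖f x‖ * ‖g x‖) μ :=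
  hf.norm.integrable_mul hg.norm

theorem cs0 {f : α → F} {g : α → G} (hf : MemLp f 2 μ) (hg : MemLp g 2 μ) :
    ∫ x, ‖f x‖ * ‖g x‖ ∂μ ≤ √(∫ x, ‖f x‖ ^ 2 ∂μ) * √(∫ x, ‖g x‖ ^ 2 ∂μ) := by
  have h := integral_mul_norm_le_Lp_mul_Lq (μ := μ) (f := fun x => ‖f x‖) (g := fun x => ‖g x‖)
    (p := 2) (q := 2) Real.HolderConjugate.two_two
    (by simpa using hf.norm) (by simpa using hg.norm)
  simp only [norm_norm, Real.rpow_ofNat] at h
  rw [Real.sqrt_eq_rpow, Real.sqrt_eq_rpow]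
  exact h

theorem tendsto_bil [NormedSpace ℝ H] (B : G → F → H) (hB : ∀ a b, ‖B a b‖ ≤ ‖a‖ * ‖b‖)
    (hs : ∀ a b b', B a (b - b') = B a b - B a b') {g : α → G} (hg : MemLp g 2 μ)
    (hm : ∀ f : α → F, MemLp f 2 μ → AEStronglyMeasurable (fun x => B (g x) (f x)) μ)
    {w : ℕ → α → F} {c : α → F} (hw : ∀ k, MemLp (w k) 2 μ) (hc : MemLp c 2 μ)
    (h : Tendsto (fun k => ∫ x, ‖w k x - c x‖ ^ 2 ∂μ) atTop (𝓝 0)) :
    Tendsto (fun k => ∫ x, B (g x) (w k x) ∂μ) atTop (𝓝 (∫ x, B (g x) (c x) ∂μ)) := by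
  have hi : ∀ f : α → F, MemLp f 2 μ → Integrable (fun x => B (g x) (f x)) μ := fun f hf =>
    (int_mul hg hf).mono' (hm f hf) (Eventually.of_forall fun x => hB _ _)
  rw [tendsto_iff_norm_sub_tendsto_zero]
  have h0 : Tendsto (fun k => √(∫ x, ‖g x‖ ^ 2 ∂μ) * √(∫ x, ‖w k x - c x‖ ^ 2 ∂μ)) atTop
      (𝓝 0) := by
    have := (Real.continuous_sqrt.tendsto 0).comp h
    rw [Real.sqrt_zero] at this
    simpa using this.const_mul (√(∫ x, ‖g x‖ ^ 2 ∂μ))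
  refine squeeze_zero (fun k => norm_nonneg _) (fun k => ?_) h0
  rw [← integral_sub (hi _ (hw k)) (hi _ hc)]
  refine (norm_integral_le_integral_norm _).trans ?_
  refine le_trans ?_ (cs0 hg ((hw k).sub hc))
  refine integral_mono_of_nonneg (Eventually.of_forall fun x => norm_nonneg _)
    (int_mul hg ((hw k).sub hc)) (Eventually.of_forall fun x => ?_)
  show ‖B (g x) (w k x) - B (g x) (c x)‖ ≤ ‖g x‖ * ‖w k x - c x‖
  rw [← hs]
  exact hB _ _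

theorem tendsto_smul [NormedSpace ℝ F] {g : α → ℝ} (hg : MemLp g 2 μ) {w : ℕ → α → F}
    {c : α → F} (hw : ∀ k, MemLp (w k) 2 μ) (hc : MemLp c 2 μ)
    (h : Tendsto (fun k => ∫ x, ‖w k x - c x‖ ^ 2 ∂μ) atTop (𝓝 0)) :
    Tendsto (fun k => ∫ x, g x • w k x ∂μ) atTop (𝓝 (∫ x, g x • c x ∂μ)) :=
  tendsto_bil (fun a b => a • b) (fun a b => (norm_smul_le a b)) (fun a b b' => smul_sub a b b')
    hg (fun _ hf => hg.1.smul hf.1) hw hc h

theorem tendsto_inner [InnerProductSpace ℂ F] {g : α → F} (hg : MemLp g 2 μ) {w : ℕ → α → F}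
    {c : α → F} (hw : ∀ k, MemLp (w k) 2 μ) (hc : MemLp c 2 μ)
    (h : Tendsto (fun k => ∫ x, ‖w k x - c x‖ ^ 2 ∂μ) atTop (𝓝 0)) :
    Tendsto (fun k => ∫ x, (inner ℂ (g x) (w k x) : ℂ) ∂μ) atTop
      (𝓝 (∫ x, (inner ℂ (g x) (c x) : ℂ) ∂μ)) :=
  tendsto_bil (fun a b => (inner ℂ a b : ℂ)) (fun a b => norm_inner_le_norm a b)
    (fun a b b' => inner_sub_right a b b') hg (fun _ hf => hg.1.inner hf.1) hw hc h

theorem tendsto_sq {w : ℕ → α → F} {c : α → F} (hw : ∀ k, MemLp (w k) 2 μ) (hc : MemLp c 2 μ)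
    (h : Tendsto (fun k => ∫ x, ‖w k x - c x‖ ^ 2 ∂μ) atTop (𝓝 0)) :
    Tendsto (fun k => ∫ x, ‖w k x‖ ^ 2 ∂μ) atTop (𝓝 (∫ x, ‖c x‖ ^ 2 ∂μ)) := by
  have h1 : ∀ k, dist ((hw k).toLp (w k)) (hc.toLp c) = √(∫ x, ‖w k x - c x‖ ^ 2 ∂μ) := by
    intro k
    rw [Lp.dist_edist, Lp.edist_toLp_toLp, eLpNorm_sq ((hw k).sub hc),
      ENNReal.toReal_ofReal (Real.sqrt_nonneg _)]
    simp only [Pi.sub_apply]
  have h2 : Tendsto (fun k => (hw k).toLp (w k)) atTop (𝓝 (hc.toLp c)) := by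
    rw [tendsto_iff_dist_tendsto_zero]
    have := (Real.continuous_sqrt.tendsto 0).comp h
    rw [Real.sqrt_zero] at this
    exact this.congr fun k => (h1 k).symm
  have h3 := (h2.norm).pow 2
  have h4 : ∀ {f : α → F} (hf : MemLp f 2 μ), ‖hf.toLp f‖ ^ 2 = ∫ x, ‖f x‖ ^ 2 ∂μ := by
    intro f hf
    rw [Lp.norm_toLp, int_sq hf]
  rw [h4 hc] at h3
  exact h3.congr fun k => h4 (hw k)

end Vale.Agent.P088.DM.H673
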