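import Vale.Agent.P088.Bdl.B12
import Vale.Agent.P088.R2.H673.DM.L2b

/-!
P088, row SOLV (helper673): limits of `H¹`-Cauchy sequences of smooth functions on an open set:
the very weak equation and the convergence of the first derivatives.
-/

open MeasureTheory Set Filter Topology
open scoped ContDiff

noncomputable section

namespace Vale.Agent.P088.DM.H673

open Vale.Agent.P088 Vale.Agent.P088.EYM

set_option linter.unusedSectionVars false

variable {n N : ℕ} [NeZero n]

theorem memLp_sq {α : Type*} [MeasurableSpace α] {μ : Measure α} {F : Type*}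
    [NormedAddCommGroup F] {f : α → F} (hm : AEStronglyMeasurable f μ)
    (hf : Integrable (fun x => ‖f x‖ ^ 2) μ) : MemLp f 2 μ :=
  (memLp_two_iff_integrable_sq_norm hm).2 hf

theorem int_cpt {F : Type*} [NormedAddCommGroup F] {D : Set (E n)} (hD : IsOpen D) {f : E n → F}
    (hf : ContinuousOn f D) {K : Set (E n)} (hK : IsCompact K) (hKD : K ⊆ D)
    (h0 : ∀ x ∈ D, x ∉ K → f x = 0) : IntegrableOn f D :=
  IntegrableOn.of_forall_sdiff_eq_zero ((hf.mono hKD).integrableOn_compact hK) hD.measurableSet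
    fun x hx => h0 x hx.1 hx.2

theorem memLp_cpt {F : Type*} [NormedAddCommGroup F] {D : Set (E n)} (hD : IsOpen D)
    {f : E n → F} (hf : ContinuousOn f D) {K : Set (E n)} (hK : IsCompact K) (hKD : K ⊆ D)
    (h0 : ∀ x ∈ D, x ∉ K → f x = 0) : MemLp f 2 (volume.restrict D) :=
  memLp_sq (hf.aestronglyMeasurable hD.measurableSet)
    (int_cpt hD (hf.norm.pow 2) hK hKD fun x hx hxK => by
      simp only [h0 x hx hxK, norm_zero]
      norm_num)

/-- the integral of a partial derivative of a compactly supported `C¹` function vanishes -/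
theorem int_pd_zero {F : Type*} [NormedAddCommGroup F] [NormedSpace ℝ F] [CompleteSpace F]
    {D : Set (E n)} (hD : IsOpen D) (hDH : D ⊆ Hs n) {Y : E n → F}
    (hY : ContDiffOn ℝ 1 Y D) {K : Set (E n)} (hK : IsCompact K) (hKD : K ⊆ D)
    (h0 : ∀ x, x ∉ K → Y x = 0) (k : Fin n) :
    ∫ x in D, pd k Y x = 0 := by
  have hKc : IsClosed K := hK.isClosed
  have hsm : ContDiff ℝ 1 Y := by
    rw [contDiff_iff_contDiffAt]
    intro x
    by_cases hx : x ∈ D
    · exact (hY x hx).contDiffAt (hD.mem_nhds hx)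
    · have hxK : x ∈ Kᶜ := fun h => hx (hKD h)
      have hev : Y =ᶠ[𝓝 x] fun _ => 0 := by
        filter_upwards [hKc.isOpen_compl.mem_nhds hxK] with y hy using h0 y hy
      exact contDiffAt_const.congr_of_eventuallyEq hev
  have hsupp : HasCompactSupport Y := HasCompactSupport.intro hK h0
  have hcont : Continuous (fun x => fderiv ℝ Y x (ev k)) :=
    (hsm.continuous_fderiv (by simp)).clm_apply continuous_const
  have hsupp' : HasCompactSupport (fun x => fderiv ℝ Y x (ev k)) := by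
    refine (hsupp.fderiv (𝕜 := ℝ)).comp_left (g := fun T : E n →L[ℝ] F => T (ev k)) rfl
  have hint : Integrable (fun x => fderiv ℝ Y x (ev k)) :=
    hcont.integrable_of_hasCompactSupport hsupp'
  have hpd : ∀ x ∈ D, pd k Y x = fderiv ℝ Y x (ev k) := by
    intro x hx
    unfold pd
    rw [fderivWithin_of_mem_nhds (Filter.mem_of_superset (hD.mem_nhds hx) hDH)]
  have hz : ∀ x, x ∉ D → fderiv ℝ Y x (ev k) = 0 := by
    intro x hx
    have hxK : x ∈ Kᶜ := fun h => hx (hKD h)
    have hev : Y =ᶠ[𝓝 x] fun _ => 0 := by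
      filter_upwards [hKc.isOpen_compl.mem_nhds hxK] with y hy using h0 y hy
    rw [hev.fderiv_eq]
    simp only [fderiv_fun_const, Pi.zero_apply, zero_apply]
  rw [setIntegral_congr_fun hD.measurableSet hpd,
    setIntegral_eq_integral_of_forall_compl_eq_zero hz]
  have h := integral_smul_fderiv_eq_neg_fderiv_smul_of_integrable
    (μ := (volume : Measure (E n))) (𝕜 := ℝ) (f := fun _ : E n => (1 : ℝ)) (g := Y) (v := ev k)
    (by simp only [fderiv_fun_const, Pi.zero_apply, zero_apply, zero_smul, integrable_fun_zero])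
    (by simpa only [one_smul] using hint)
    (by simpa only [one_smul] using hsm.continuous.integrable_of_hasCompactSupport hsupp)
    (fun x _ => differentiableAt_const _) (fun x _ => hsm.differentiable (by simp) x)
  simpa only [one_smul, fderiv_fun_const, Pi.zero_apply, zero_apply, zero_smul, integral_zero,
    neg_zero] using h

/-- partial derivatives vanish outside the support -/
theorem pd_notMem {F : Type*} [NormedAddCommGroup F] [NormedSpace ℝ F] {ψ : E n → F} {x : E n}
    (hx : x ∉ tsupport ψ) (j : Fin n) : pd j ψ x = 0 := by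
  have hev : ψ =ᶠ[𝓝 x] fun _ => 0 := by
    filter_upwards [(isClosed_tsupport ψ).isOpen_compl.mem_nhds hx] with y hy using
      image_eq_zero_of_notMem_tsupport hy
  unfold pd
  rw [(hev.filter_mono nhdsWithin_le_nhds).fderivWithin_eq hev.self_of_nhds]
  rw [fderivWithin_fun_const]
  rfl

/-- integration by parts -/
theorem by_parts {F : Type*} [NormedAddCommGroup F] [NormedSpace ℝ F] [CompleteSpace F]
    {D : Set (E n)} (hD : IsOpen D) (hDH : D ⊆ Hs n) {g : E n → ℝ}
    (hg : Tst0 D g) {w : E n → F} (hw : ContDiffOn ℝ ∞ w D) (j : Fin n) :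
    ∫ x in D, g x • pd j w x = - ∫ x in D, pd j g x • w x := by
  obtain ⟨hgs, hgc, hgt⟩ := hg
  have hDr := linInt_relOpen hD hDH
  have h1 := int_pd_zero (F := F) hD hDH (Y := fun y => g y • w y)
    ((hgs.contDiffOn.smul hw).of_le (by simp only [WithTop.one_le_coe, le_top])) hgc hgt
    (fun x hx => by
      show g x • w x = 0
      rw [image_eq_zero_of_notMem_tsupport hx, zero_smul]) j
  have h2 : ∀ x ∈ D, pd j (fun y => g y • w y) x = g x • pd j w x + pd j g x • w x :=
    fun x hx => hDr.pd_smul hgs.contDiffOn hw hx j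
  rw [setIntegral_congr_fun hD.measurableSet h2, integral_add] at h1
  · exact eq_neg_of_add_eq_zero_left h1
  · refine int_cpt hD (hgs.continuous.continuousOn.smul (hDr.pd_smooth hw j).continuousOn) hgc hgt
      fun x _ hxK => ?_
    show g x • pd j w x = 0
    rw [image_eq_zero_of_notMem_tsupport hxK, zero_smul]
  · refine int_cpt hD ((hDr.pd_smooth hgs.contDiffOn j).continuousOn.smul hw.continuousOn) hgc hgt
      fun x _ hxK => ?_
    show pd j g x • w x = 0
    rw [pd_notMem hxK, zero_smul]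

theorem two_of {F : Type*} [NormedAddCommGroup F] [NormedSpace ℝ F] {f : E n → F}
    (hf : ContDiff ℝ ∞ f) {D : Set (E n)} : ContDiffOn ℝ 2 f D := by
  have h := contDiff_infty.1 hf 2
  exact ContDiff.contDiffOn (by exact_mod_cast h)

/-- Green's formula on an open set, the first function is a test function -/
theorem green_int {D : Set (E n)} (hD : IsOpen D) (hDH : D ⊆ Hs n) {L : LD n N} (hL : L.Ok D)
    {c ψ : E n → Fib N} (hc : ContDiffOn ℝ ∞ c D) (hψ : Tst0 D ψ) :
    En L D ψ c = - ∫ x in D, inner ℂ (Lop L ψ x) (L.h x (c x)) := by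
  have hDr := linInt_relOpen hD hDH
  obtain ⟨hψs, hψc, hψt⟩ := hψ
  have hD' : RelOpen ((tsupport ψ)ᶜ ∩ D) :=
    hDr.univ_inter (isClosed_tsupport ψ).isOpen_compl
  have hz := AGreen_zero (L := L) hD' (c := ψ) fun x hx => image_eq_zero_of_notMem_tsupport hx.1
  have hflux0 : ∀ k x, x ∉ tsupport ψ → flux L k ψ x = 0 := by
    intro k x hx
    unfold flux nab
    refine Finset.sum_eq_zero fun j _ => ?_
    rw [pd_notMem hx, image_eq_zero_of_notMem_tsupport hx, map_zero, add_zero, smul_zero]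
  have hh : ContDiffOn ℝ ∞ (fun y => L.h y (c y)) D := smooth_eval hL.h_smooth hc
  have hY : ∀ k, IntegrableOn (pd k (fun y => (inner ℂ (flux L k ψ y) (L.h y (c y)) : ℂ))) D ∧
      ∫ x in D, pd k (fun y => (inner ℂ (flux L k ψ y) (L.h y (c y)) : ℂ)) x = 0 := by
    intro k
    refine linInt_int_zero hD hDH (K := tsupport ψ) ?_ hψc hψt ?_ k
    · have h1 : ContDiffOn ℝ ∞ (fun y => (inner ℂ (flux L k ψ y) (L.h y (c y)) : ℂ)) D :=
        (linInt_flux_smooth hDr hL hψs.contDiffOn k).inner ℂ hh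
      exact h1.of_le (by simp only [WithTop.one_le_coe, le_top])
    · intro x hx
      rw [hflux0 k x hx, inner_zero_left]
  have hI2 : IntegrableOn (fun x => (inner ℂ (Lop L ψ x) (L.h x (c x)) : ℂ)) D := by
    refine int_cpt hD ?_ hψc hψt fun x hx hxK => ?_
    · exact (AGreen_Lop_cont hDr hL (two_of hψs)).inner hh.continuousOn
    · rw [hz.2 x ⟨hxK, hx⟩, inner_zero_left]
  have hed : ∀ x ∈ D, ed L ψ c x =
      ∑ k, pd k (fun y => (inner ℂ (flux L k ψ y) (L.h y (c y)) : ℂ)) x -
        inner ℂ (Lop L ψ x) (L.h x (c x)) := fun x hx => by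
    rw [linInt_div hDr hL hψs.contDiffOn hc hx]
    ring
  unfold En
  rw [setIntegral_congr_fun hD.measurableSet hed,
    integral_sub (integrable_finsetSum _ fun k _ => (hY k).1) hI2,
    integral_finsetSum _ fun k _ => (hY k).1]
  simp only [(hY _).2, Finset.sum_const_zero, zero_sub]

/-- the very weak equation for the limit -/
theorem lim_weak {D : Set (E n)} (hD : IsOpen D) (hDH : D ⊆ Hs n) {L : LD n N} (hL : L.Ok D)
    (hh : ∀ x ∈ D, L.h x = 1) {w : ℕ → E n → Fib N} {c0 : E n → Fib N}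
    (hw : ∀ k, ContDiffOn ℝ ∞ (w k) D) (hw2 : ∀ k, MemLp (w k) 2 (volume.restrict D))
    (hc0 : MemLp c0 2 (volume.restrict D))
    (hlim : Tendsto (fun k => ∫ x in D, ‖w k x - c0 x‖ ^ 2) atTop (𝓝 0))
    (hE : ∀ ψ : E n → Fib N, Tst0 D ψ → Tendsto (fun k => En L D (w k) ψ) atTop (𝓝 0))
    {ψ : E n → Fib N} (hψ : Tst0 D ψ) : ∫ x in D, (inner ℂ (Lop L ψ x) (c0 x) : ℂ) = 0 := by
  have hDr := linInt_relOpen hD hDH
  have hD' : RelOpen ((tsupport ψ)ᶜ ∩ D) :=
    hDr.univ_inter (isClosed_tsupport ψ).isOpen_compl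
  have hz := AGreen_zero (L := L) hD' (c := ψ) fun x hx => image_eq_zero_of_notMem_tsupport hx.1
  have hg : MemLp (Lop L ψ) 2 (volume.restrict D) :=
    memLp_cpt hD (AGreen_Lop_cont hDr hL (two_of hψ.1))
      hψ.2.1 hψ.2.2 fun x hx hxK => hz.2 x ⟨hxK, hx⟩
  have h1 := tendsto_inner hg hw2 hc0 hlim
  have h2 : ∀ k, ∫ x in D, (inner ℂ (Lop L ψ x) (w k x) : ℂ) =
      - (starRingEnd ℂ) (En L D (w k) ψ) := by
    intro k
    have e1 := green_int hD hDH hL (hw k) hψ
    have e2 : En L D ψ (w k) = (starRingEnd ℂ) (En L D (w k) ψ) := by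
      unfold En
      rw [← integral_conj]
      exact setIntegral_congr_fun hD.measurableSet fun x hx =>
        CRungeC_ed_symm (hL.g_pos x hx) (hh x hx)
    rw [← e2, e1, neg_neg]
    refine setIntegral_congr_fun hD.measurableSet fun x hx => ?_
    simp only [hh x hx]
    rfl
  have h3 : Tendsto (fun k => - (starRingEnd ℂ) (En L D (w k) ψ)) atTop (𝓝 0) := by
    have := ((Complex.continuous_conj.tendsto 0).comp (hE ψ hψ)).neg
    simpa using this
  exact tendsto_nhds_unique h1 (h3.congr fun k => (h2 k).symm)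

theorem h1_parts {D : Set (E n)} (hD : IsOpen D) (hDH : D ⊆ Hs n) {c : E n → Fib N}
    (hc : ContDiffOn ℝ ∞ c D)
    (hi : IntegrableOn (fun x => ‖c x‖ ^ 2 + ∑ j, ‖pd j c x‖ ^ 2) D) :
    MemLp c 2 (volume.restrict D) ∧ ∀ j, MemLp (pd j c) 2 (volume.restrict D) := by
  have hDr := linInt_relOpen hD hDH
  have m1 := hc.continuousOn.aestronglyMeasurable (μ := volume) hD.measurableSet
  have m2 := fun j => (hDr.pd_smooth hc j).continuousOn.aestronglyMeasurable
    (μ := volume) hD.measurableSet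
  refine ⟨memLp_sq m1 (hi.mono' (m1.norm.pow 2) (Eventually.of_forall fun x => ?_)),
    fun j => memLp_sq (m2 j) (hi.mono' ((m2 j).norm.pow 2) (Eventually.of_forall fun x => ?_))⟩
  · rw [Real.norm_eq_abs, abs_of_nonneg (sq_nonneg _)]
    exact le_add_of_nonneg_right (Finset.sum_nonneg fun _ _ => sq_nonneg _)
  · rw [Real.norm_eq_abs, abs_of_nonneg (sq_nonneg _)]
    refine le_trans ?_ (le_add_of_nonneg_left (sq_nonneg _))
    exact Finset.single_le_sum (f := fun j => ‖pd j c x‖ ^ 2) (fun _ _ => sq_nonneg _)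
      (Finset.mem_univ j)

theorem h1_of_parts {D : Set (E n)} {c : E n → Fib N} (h1 : MemLp c 2 (volume.restrict D))
    (h2 : ∀ j, MemLp (pd j c) 2 (volume.restrict D)) :
    IntegrableOn (fun x => ‖c x‖ ^ 2 + ∑ j, ‖pd j c x‖ ^ 2) D ∧
      H1 D c = (∫ x in D, ‖c x‖ ^ 2) + ∑ j, ∫ x in D, ‖pd j c x‖ ^ 2 := by
  have i1 := (memLp_two_iff_integrable_sq_norm h1.1).1 h1
  have i2 := fun j => (memLp_two_iff_integrable_sq_norm (h2 j).1).1 (h2 j)
  refine ⟨i1.add (integrable_finsetSum _ fun j _ => i2 j), ?_⟩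
  unfold H1
  rw [integral_add i1 (integrable_finsetSum _ fun j _ => i2 j),
    integral_finsetSum _ fun j _ => i2 j]

theorem lim_exists {D : Set (E n)} {w : ℕ → E n → Fib N}
    (hw : ∀ k, MemLp (w k) 2 (volume.restrict D))
    (hC : ∀ ε > 0, ∃ k₀, ∀ k ≥ k₀, ∀ l ≥ k₀, ∫ x in D, ‖w k x - w l x‖ ^ 2 ≤ ε) :
    ∃ c0 : E n → Fib N, MemLp c0 2 (volume.restrict D) ∧
      Tendsto (fun k => ∫ x in D, ‖w k x - c0 x‖ ^ 2) atTop (𝓝 0) :=
  exists_lim w hw hC

/-- the parts of the `H¹` Cauchy property -/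
theorem h1_cauchy {D : Set (E n)} (hD : IsOpen D) (hDH : D ⊆ Hs n) {w : ℕ → E n → Fib N}
    (hw : ∀ k, ContDiffOn ℝ ∞ (w k) D)
    (hi : ∀ k, IntegrableOn (fun x => ‖w k x‖ ^ 2 + ∑ j, ‖pd j (w k) x‖ ^ 2) D)
    (hC : ∀ ε > 0, ∃ k₀, ∀ k ≥ k₀, ∀ l ≥ k₀, H1 D (fun x => w k x - w l x) ≤ ε) :
    (∀ ε > 0, ∃ k₀, ∀ k ≥ k₀, ∀ l ≥ k₀, ∫ x in D, ‖w k x - w l x‖ ^ 2 ≤ ε) ∧
    ∀ j, ∀ ε > 0, ∃ k₀, ∀ k ≥ k₀, ∀ l ≥ k₀, ∫ x in D, ‖pd j (w k) x - pd j (w l) x‖ ^ 2 ≤ ε := by
  have hDr := linInt_relOpen hD hDH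
  have hp := fun k => h1_parts hD hDH (hw k) (hi k)
  have hpd : ∀ k l j, ∀ x ∈ D, pd j (fun x => w k x - w l x) x = pd j (w k) x - pd j (w l) x :=
    fun k l j x hx => hDr.pd_sub (hw k) (hw l) hx j
  have hm : ∀ k l j, MemLp (pd j (fun x => w k x - w l x)) 2 (volume.restrict D) := by
    intro k l j
    refine (((hp k).2 j).sub ((hp l).2 j)).ae_eq ?_
    filter_upwards [ae_restrict_mem hD.measurableSet] with x hx
    rw [hpd k l j x hx, Pi.sub_apply]
  have hH : ∀ k l, H1 D (fun x => w k x - w l x) = (∫ x in D, ‖w k x - w l x‖ ^ 2) +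
      ∑ j, ∫ x in D, ‖pd j (w k) x - pd j (w l) x‖ ^ 2 := by
    intro k l
    rw [(h1_of_parts (c := fun x => w k x - w l x) ((hp k).1.sub (hp l).1) (hm k l)).2]
    congr 1
    refine Finset.sum_congr rfl fun j _ => ?_
    exact setIntegral_congr_fun hD.measurableSet fun x hx => by
      simp only [hpd k l j x hx]
  have n1 : ∀ k l, 0 ≤ ∫ x in D, ‖w k x - w l x‖ ^ 2 := fun k l =>
    integral_nonneg fun x => sq_nonneg _
  have n2 : ∀ k l j, 0 ≤ ∫ x in D, ‖pd j (w k) x - pd j (w l) x‖ ^ 2 := fun k l j =>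
    integral_nonneg fun x => sq_nonneg _
  constructor
  · intro ε hε
    obtain ⟨k₀, hk⟩ := hC ε hε
    refine ⟨k₀, fun k hk' l hl => ?_⟩
    have h := hk k hk' l hl
    rw [hH] at h
    exact le_trans (le_add_of_nonneg_right (Finset.sum_nonneg fun j _ => n2 k l j)) h
  · intro j ε hε
    obtain ⟨k₀, hk⟩ := hC ε hε
    refine ⟨k₀, fun k hk' l hl => ?_⟩
    have h := hk k hk' l hl
    rw [hH] at h
    have h2 := Finset.single_le_sum (f := fun j => ∫ x in D, ‖pd j (w k) x - pd j (w l) x‖ ^ 2)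
      (fun j _ => n2 k l j) (Finset.mem_univ j)
    have h3 := n1 k l
    linarith

/-- convergence of the first derivatives -/
theorem lim_H1 {D : Set (E n)} (hD : IsOpen D) (hDH : D ⊆ Hs n) {w : ℕ → E n → Fib N}
    {c0 c : E n → Fib N} (hw : ∀ k, ContDiffOn ℝ ∞ (w k) D)
    (hi : ∀ k, IntegrableOn (fun x => ‖w k x‖ ^ 2 + ∑ j, ‖pd j (w k) x‖ ^ 2) D)
    (hC : ∀ ε > 0, ∃ k₀, ∀ k ≥ k₀, ∀ l ≥ k₀, H1 D (fun x => w k x - w l x) ≤ ε)
    (hc0 : MemLp c0 2 (volume.restrict D))
    (hlim : Tendsto (fun k => ∫ x in D, ‖w k x - c0 x‖ ^ 2) atTop (𝓝 0))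
    (hc : ContDiffOn ℝ ∞ c D) (hcc : ∀ᵐ x ∂(volume.restrict D), c x = c0 x) :
    IntegrableOn (fun x => ‖c x‖ ^ 2 + ∑ j, ‖pd j c x‖ ^ 2) D ∧
    Tendsto (fun k => H1 D (fun x => w k x - c x)) atTop (𝓝 0) := by
  have hDr := linInt_relOpen hD hDH
  have hp := fun k => h1_parts hD hDH (hw k) (hi k)
  have hcau := (h1_cauchy hD hDH hw hi hC).2
  have hcm : MemLp c 2 (volume.restrict D) := hc0.ae_eq (hcc.mono fun x hx => hx.symm)
  have hlc : Tendsto (fun k => ∫ x in D, ‖w k x - c x‖ ^ 2) atTop (𝓝 0) := by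
    refine hlim.congr fun k => ?_
    refine integral_congr_ae ?_
    filter_upwards [hcc] with x hx
    rw [hx]
  -- the derivatives
  have key : ∀ j, MemLp (pd j c) 2 (volume.restrict D) ∧
      Tendsto (fun k => ∫ x in D, ‖pd j (w k) x - pd j c x‖ ^ 2) atTop (𝓝 0) := by
    intro j
    obtain ⟨G, hG, hGl⟩ := exists_lim (fun k => pd j (w k)) (fun k => (hp k).2 j) (hcau j)
    have hpc : ContinuousOn (pd j c) D := (hDr.pd_smooth hc j).continuousOn
    have hloc : LocallyIntegrableOn (fun x => G x - pd j c x) D volume := by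
      have g1 : LocallyIntegrableOn G D volume := by
        intro x hx
        obtain ⟨r, hr, hb⟩ := Metric.nhds_basis_closedBall.mem_iff.1 (hD.mem_nhds hx)
        refine ⟨Metric.closedBall x r, mem_nhdsWithin_of_mem_nhds
          (Metric.closedBall_mem_nhds x hr), ?_⟩
        have h1 : MemLp G 2 (volume.restrict (Metric.closedBall x r)) :=
          hG.mono_measure (Measure.restrict_mono hb le_rfl)
        have : IsFiniteMeasure (volume.restrict (Metric.closedBall x r)) :=
          ⟨by rw [Measure.restrict_apply_univ]; exact measure_closedBall_lt_top⟩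
        exact h1.integrable one_le_two
      exact g1.sub (hpc.locallyIntegrableOn hD.measurableSet)
    have hz := hD.ae_eq_zero_of_integral_contDiff_smul_eq_zero hloc fun g hg1 hg2 hg3 => by
      have hg : Tst0 D g := ⟨hg1, hg2, hg3⟩
      have e0 : ∫ x, g x • (G x - pd j c x) = ∫ x in D, g x • (G x - pd j c x) := by
        refine (setIntegral_eq_integral_of_forall_compl_eq_zero fun x hx => ?_).symm
        rw [image_eq_zero_of_notMem_tsupport fun h => hx (hg3 h), zero_smul]
      have hgm : MemLp g 2 (volume.restrict D) :=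
        memLp_cpt hD hg1.continuous.continuousOn hg2 hg3 fun x _ hx =>
          image_eq_zero_of_notMem_tsupport hx
      have hgpm : MemLp (pd j g) 2 (volume.restrict D) :=
        memLp_cpt hD (hDr.pd_smooth hg1.contDiffOn j).continuousOn hg2 hg3 fun x _ hx =>
          pd_notMem hx j
      have l1 := tendsto_smul hgm (fun k => (hp k).2 j) hG hGl
      have l2 := (tendsto_smul hgpm (fun k => (hp k).1) hcm hlc).neg
      have l3 : ∫ x in D, g x • G x = ∫ x in D, g x • pd j c x := by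
        rw [by_parts hD hDH hg hc j]
        refine tendsto_nhds_unique l1 (l2.congr fun k => ?_)
        rw [by_parts hD hDH hg (hw k) j]
      have i1 : IntegrableOn (fun x => g x • G x) D := by
        refine (int_mul hgm hG).mono' (hgm.1.smul hG.1) (Eventually.of_forall fun x => ?_)
        exact norm_smul_le _ _
      have i2 : IntegrableOn (fun x => g x • pd j c x) D := by
        refine int_cpt hD (hg1.continuous.continuousOn.smul hpc) hg2 hg3 fun x _ hx => ?_
        show g x • pd j c x = 0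
        rw [image_eq_zero_of_notMem_tsupport hx, zero_smul]
      rw [e0]
      simp only [smul_sub]
      rw [integral_sub i1 i2, l3, sub_self]
    have hz' : ∀ᵐ x ∂(volume.restrict D), G x = pd j c x := by
      rw [ae_restrict_iff' hD.measurableSet]
      exact hz.mono fun x hx hxD => sub_eq_zero.1 (hx hxD)
    refine ⟨hG.ae_eq hz', hGl.congr fun k => integral_congr_ae ?_⟩
    filter_upwards [hz'] with x hx
    rw [hx]
  have hsub : ∀ k j, ∀ x ∈ D, pd j (fun x => w k x - c x) x = pd j (w k) x - pd j c x :=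
    fun k j x hx => hDr.pd_sub (hw k) hc hx j
  refine ⟨(h1_of_parts hcm fun j => (key j).1).1, ?_⟩
  have hH : ∀ k, H1 D (fun x => w k x - c x) = (∫ x in D, ‖w k x - c x‖ ^ 2) +
      ∑ j, ∫ x in D, ‖pd j (w k) x - pd j c x‖ ^ 2 := by
    intro k
    rw [(h1_of_parts (c := fun x => w k x - c x) ((hp k).1.sub hcm) fun j => ?_).2]
    · congr 1
      refine Finset.sum_congr rfl fun j _ => ?_
      exact setIntegral_congr_fun hD.measurableSet fun x hx => by
        simp only [hsub k j x hx]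
    · refine (((hp k).2 j).sub (key j).1).ae_eq ?_
      filter_upwards [ae_restrict_mem hD.measurableSet] with x hx
      rw [hsub k j x hx, Pi.sub_apply]
  have hs : Tendsto (fun k => ∑ j, ∫ x in D, ‖pd j (w k) x - pd j c x‖ ^ 2) atTop (𝓝 0) := by
    have := tendsto_finsetSum (Finset.univ : Finset (Fin n)) fun j _ => (key j).2
    simpa using this
  have := hlc.add hs
  rw [add_zero] at this
  exact this.congr fun k => (hH k).symm

end Vale.Agent.P088.DM.H673
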