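import Vale.Agent.P088.R2.H238.DM.Spec
import Vale.Agent.P088.R2.H673.DM.Lim

/-!
P088, row SOLV (helper673): `RowTR`, the trace zero condition passes to the limit.
-/

open MeasureTheory Set Filter Topology
open scoped ContDiff ENNReal

noncomputable section

namespace Vale.Agent.P088.DM.H673

open Vale.Agent.P088 Vale.Agent.P088.EYM Vale.Agent.P088.DM

set_option linter.unusedSectionVars false

variable {n N : ℕ} [NeZero n]

theorem Bx_rel (z : E n) (r : ℝ) : RelOpen (Bx z r) := by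
  refine ⟨{x | ∀ i, |x i - z i| < r}, ?_, rfl⟩
  have : {x : E n | ∀ i, |x i - z i| < r} = ⋂ i, {x : E n | |x i - z i| < r} := by
    ext x; simp
  rw [this]
  exact isOpen_iInter_of_finite fun i =>
    isOpen_lt (((continuous_coord i).sub continuous_const).abs) continuous_const

theorem Bo_open (z : E n) (r : ℝ) : IsOpen (Bo z r) := by
  have : (Bo z r : Set (E n)) = {x | ∀ i, |x i - z i| < r} ∩ {x | 0 < x 0} := rfl
  rw [this]
  refine IsOpen.inter ?_ (isOpen_lt continuous_const (continuous_coord 0))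
  have : {x : E n | ∀ i, |x i - z i| < r} = ⋂ i, {x : E n | |x i - z i| < r} := by
    ext x; simp
  rw [this]
  exact isOpen_iInter_of_finite fun i =>
    isOpen_lt (((continuous_coord i).sub continuous_const).abs) continuous_const

theorem Bo_sub (z : E n) (r : ℝ) : Bo z r ⊆ Bx z r := fun _ hx => ⟨hx.1, hx.2.le⟩

theorem Bo_Hs (z : E n) (r : ℝ) : Bo z r ⊆ Hs n := fun _ hx => hx.2.le

/-- moving down -/
theorem down_mem {z : E n} (hz : z 0 = 0) {r : ℝ} {x : E n} (hx : x ∈ Bx z r) {t : ℝ}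
    (ht0 : 0 ≤ t) (ht : t ≤ x 0) : x - t • ev 0 ∈ Bx z r := by
  have h0 := hx.1 0
  rw [hz, sub_zero, abs_of_nonneg hx.2] at h0
  constructor
  · intro i
    by_cases hi : i = 0
    · subst hi
      have e : (x - t • (ev 0 : E n)) 0 = x 0 - t := by simp
      rw [e, hz, sub_zero, abs_of_nonneg (by linarith)]
      linarith
    · have e : (x - t • (ev 0 : E n)) i = x i := by simp [hi]
      rw [e]
      exact hx.1 i
  · show 0 ≤ (x - t • (ev 0 : E n)) 0
    have e : (x - t • (ev 0 : E n)) 0 = x 0 - t := by simp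
    rw [e]
    linarith

theorem down_mem' {z : E n} (hz : z 0 = 0) {r : ℝ} {x : E n} (hx : x ∈ Bx z r) {t : ℝ}
    (ht0 : 0 ≤ t) (ht : t < x 0) : x - t • ev 0 ∈ Bo z r := by
  refine ⟨(down_mem hz hx ht0 ht.le).1, ?_⟩
  show 0 < (x - t • (ev 0 : E n)) 0
  have e : (x - t • (ev 0 : E n)) 0 = x 0 - t := by simp
  rw [e]
  linarith

/-- the pointwise estimate -/
theorem pt_est {z : E n} (hz : z 0 = 0) {r : ℝ} {w : E n → Fib N}
    (hw : ContDiffOn ℝ ∞ w (Bx z r)) (h0 : ∀ x ∈ Bx z r, x 0 = 0 → w x = 0) {x : E n}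
    (hx : x ∈ Bo z r) :
    ‖w x‖ ^ 2 ≤ x 0 * ∫ t in Ioc 0 (x 0), ‖pd 0 w (x - t • ev 0)‖ ^ 2 := by
  have hxx := Bo_sub z r hx
  have hx0 : 0 < x 0 := hx.2
  have hDr := Bx_rel z r
  have hpc : ContinuousOn (pd 0 w) (Bx z r) := (hDr.pd_smooth hw 0).continuousOn
  have hcur : Continuous fun t : ℝ => x - t • (ev 0 : E n) := by fun_prop
  have hmaps : MapsTo (fun t : ℝ => x - t • (ev 0 : E n)) (Icc 0 (x 0)) (Bx z r) :=
    fun t ht => down_mem hz hxx ht.1 ht.2
  have hcp : ContinuousOn (fun t : ℝ => pd 0 w (x - t • ev 0)) (Icc 0 (x 0)) :=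
    hpc.comp hcur.continuousOn hmaps
  have hcw : ContinuousOn (fun t : ℝ => w (x - t • ev 0)) (Icc 0 (x 0)) :=
    hw.continuousOn.comp hcur.continuousOn hmaps
  have hder : ∀ t ∈ Ioo 0 (x 0), HasDerivAt (fun t : ℝ => w (x - t • ev 0))
      (- pd 0 w (x - t • ev 0)) t := by
    intro t ht
    have hm := down_mem' hz hxx ht.1.le ht.2
    have hd : HasFDerivAt w (fderivWithin ℝ w (Hs n) (x - t • ev 0)) (x - t • ev 0) := by
      have h1 := hDr.hasD (Bo_sub z r hm) hw (by simp)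
      exact h1.hasFDerivAt (Filter.mem_of_superset ((Bo_open z r).mem_nhds hm) (Bo_Hs z r))
    have hc : HasDerivAt (fun t : ℝ => x - t • (ev 0 : E n)) (-(ev 0 : E n)) t := by
      have := ((hasDerivAt_id t).smul_const (ev 0 : E n)).const_sub x
      simpa using this
    have h2 := hd.comp_hasDerivAt t hc
    rw [map_neg] at h2
    exact h2
  have hFTC := intervalIntegral.integral_eq_sub_of_hasDerivAt_of_le hx0.le hcw hder
    (hcp.neg.intervalIntegrable_of_Icc hx0.le)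
  have hend : w (x - (x 0) • ev 0) = 0 := by
    refine h0 _ (hmaps ⟨hx0.le, le_rfl⟩) ?_
    simp
  rw [hend, zero_smul, sub_zero, zero_sub, intervalIntegral.integral_neg, neg_inj,
    intervalIntegral.integral_of_le hx0.le] at hFTC
  have hm1 : MemLp (fun t : ℝ => pd 0 w (x - t • ev 0)) 2 (volume.restrict (Ioc 0 (x 0))) := by
    refine memLp_sq ((hcp.mono Ioc_subset_Icc_self).aestronglyMeasurable measurableSet_Ioc) ?_
    exact ((hcp.norm.pow 2).integrableOn_Icc).mono_set Ioc_subset_Icc_self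
  have hm2 : MemLp (fun _ : ℝ => (1 : ℝ)) 2 (volume.restrict (Ioc 0 (x 0))) := by
    have : IsFiniteMeasure (volume.restrict (Ioc 0 (x 0))) :=
      ⟨by rw [Measure.restrict_apply_univ]; exact measure_Ioc_lt_top⟩
    exact memLp_const 1
  have hcs := cs0 hm1 hm2
  have e1 : ∫ t in Ioc 0 (x 0), ‖(1 : ℝ)‖ ^ 2 = x 0 := by
    simp [hx0.le]
  have h3 : ‖w x‖ ≤ √(∫ t in Ioc 0 (x 0), ‖pd 0 w (x - t • ev 0)‖ ^ 2) * √(x 0) := by
    rw [← hFTC]
    refine (norm_integral_le_integral_norm _).trans ?_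
    rw [e1] at hcs
    simpa using hcs
  calc ‖w x‖ ^ 2 ≤ (√(∫ t in Ioc 0 (x 0), ‖pd 0 w (x - t • ev 0)‖ ^ 2) * √(x 0)) ^ 2 :=
        pow_le_pow_left₀ (norm_nonneg _) h3 2
    _ = _ := by
        rw [mul_pow, Real.sq_sqrt hx0.le, Real.sq_sqrt (integral_nonneg fun _ => sq_nonneg _)]
        ring

/-- the estimate near the flat boundary -/
theorem tr_est {z : E n} (hz : z 0 = 0) {r : ℝ} {w : E n → Fib N}
    (hw : ContDiffOn ℝ ∞ w (Bx z r)) (h0 : ∀ x ∈ Bx z r, x 0 = 0 → w x = 0)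
    (hi2 : IntegrableOn (fun x => ‖w x‖ ^ 2) (Bo z r))
    (hid : IntegrableOn (fun x => ‖pd 0 w x‖ ^ 2) (Bo z r)) {e : ℝ} (he : 0 < e) :
    ∫ x in Bo z r ∩ {x | x 0 < e}, ‖w x‖ ^ 2 ≤ (∫ x in Bo z r, ‖pd 0 w x‖ ^ 2) * e ^ 2 := by
  classical
  have hBm : MeasurableSet (Bo z r) := (Bo_open z r).measurableSet
  have hpc : ContinuousOn (pd 0 w) (Bx z r) := ((Bx_rel z r).pd_smooth hw 0).continuousOn
  set F : E n → ℝ≥0∞ := fun y => ENNReal.ofReal (‖pd 0 w y‖ ^ 2) with hF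
  set G : E n → ℝ≥0∞ := (Bo z r).piecewise F (fun _ => 0) with hGdef
  have hG : Measurable G := by
    refine ContinuousOn.measurable_piecewise ?_ continuousOn_const hBm
    exact ENNReal.continuous_ofReal.comp_continuousOn ((hpc.mono (Bo_sub z r)).norm.pow 2)
  have hGi : ∫⁻ x, G x = ∫⁻ x in Bo z r, F x := by
    have : G = (Bo z r).indicator F := Set.piecewise_eq_indicator
    rw [this, lintegral_indicator hBm]
  set S : Set (E n) := Bo z r ∩ {x | x 0 < e} with hS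
  have hSm : MeasurableSet S :=
    hBm.inter (isOpen_lt (continuous_coord 0) continuous_const).measurableSet
  have hSB : S ⊆ Bo z r := inter_subset_left
  have hpt : ∀ x ∈ S, ENNReal.ofReal (‖w x‖ ^ 2) ≤
      ENNReal.ofReal e * ∫⁻ t in Ioc 0 e, G (x - t • ev 0) := by
    intro x hx
    have hxB := hSB hx
    have hxx := Bo_sub z r hxB
    have hx0 : 0 < x 0 := hxB.2
    have hxe : x 0 < e := hx.2
    have h1 := pt_est hz hw h0 hxB
    have hmaps : MapsTo (fun t : ℝ => x - t • (ev 0 : E n)) (Icc 0 (x 0)) (Bx z r) :=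
      fun t ht => down_mem hz hxx ht.1 ht.2
    have hcp : ContinuousOn (fun t : ℝ => pd 0 w (x - t • ev 0)) (Icc 0 (x 0)) :=
      hpc.comp (by fun_prop) hmaps
    have hint : IntegrableOn (fun t : ℝ => ‖pd 0 w (x - t • ev 0)‖ ^ 2) (Ioc 0 (x 0)) :=
      ((hcp.norm.pow 2).integrableOn_Icc).mono_set Ioc_subset_Icc_self
    calc ENNReal.ofReal (‖w x‖ ^ 2)
        ≤ ENNReal.ofReal (x 0 * ∫ t in Ioc 0 (x 0), ‖pd 0 w (x - t • ev 0)‖ ^ 2) :=
          ENNReal.ofReal_le_ofReal h1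
      _ = ENNReal.ofReal (x 0) * ∫⁻ t in Ioc 0 (x 0), F (x - t • ev 0) := by
          rw [ENNReal.ofReal_mul hx0.le, ofReal_integral_eq_lintegral_ofReal hint
            (Eventually.of_forall fun t => sq_nonneg _)]
      _ = ENNReal.ofReal (x 0) * ∫⁻ t in Ioo 0 (x 0), F (x - t • ev 0) := by
          rw [Measure.restrict_congr_set (Ioo_ae_eq_Ioc (a := (0 : ℝ)) (b := x 0) (μ := volume))]
      _ ≤ ENNReal.ofReal e * ∫⁻ t in Ioc 0 e, G (x - t • ev 0) := by
          refine mul_le_mul' (ENNReal.ofReal_le_ofReal hxe.le) ?_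
          calc ∫⁻ t in Ioo 0 (x 0), F (x - t • ev 0)
              = ∫⁻ t in Ioo 0 (x 0), G (x - t • ev 0) := by
                refine setLIntegral_congr_fun measurableSet_Ioo fun t ht => ?_
                have hm := down_mem' hz hxx ht.1.le ht.2
                simp only [hGdef, Set.piecewise_eq_of_mem _ _ _ hm]
            _ ≤ ∫⁻ t in Ioc 0 e, G (x - t • ev 0) :=
                lintegral_mono_set fun t ht => ⟨ht.1, ht.2.le.trans hxe.le⟩
  have hcur : Measurable fun p : E n × ℝ => p.1 - p.2 • (ev 0 : E n) := by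
    have : Continuous fun p : E n × ℝ => p.1 - p.2 • (ev 0 : E n) := by fun_prop
    exact this.measurable
  have hswap : ∫⁻ x, ∫⁻ t in Ioc 0 e, G (x - t • ev 0) =
      ∫⁻ t in Ioc 0 e, ∫⁻ x, G (x - t • ev 0) :=
    lintegral_lintegral_swap (hG.comp hcur).aemeasurable
  have hmain : ∫⁻ x in S, ENNReal.ofReal (‖w x‖ ^ 2) ≤
      ENNReal.ofReal e * ((∫⁻ x, G x) * ENNReal.ofReal e) := by
    calc ∫⁻ x in S, ENNReal.ofReal (‖w x‖ ^ 2)
        ≤ ∫⁻ x in S, ENNReal.ofReal e * ∫⁻ t in Ioc 0 e, G (x - t • ev 0) :=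
          setLIntegral_mono' hSm hpt
      _ ≤ ∫⁻ x, ENNReal.ofReal e * ∫⁻ t in Ioc 0 e, G (x - t • ev 0) :=
          setLIntegral_le_lintegral _ _
      _ = ENNReal.ofReal e * ∫⁻ t in Ioc 0 e, ∫⁻ x, G (x - t • ev 0) := by
          rw [lintegral_const_mul' _ _ ENNReal.ofReal_ne_top, hswap]
      _ = ENNReal.ofReal e * ∫⁻ _t in Ioc 0 e, ∫⁻ x, G x := by
          congr 1
          refine lintegral_congr fun t => ?_
          exact lintegral_sub_right_eq_self G (t • ev 0)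
      _ = _ := by
          rw [setLIntegral_const, Real.volume_Ioc, sub_zero]
  have hl : ∫⁻ x in S, ENNReal.ofReal (‖w x‖ ^ 2) = ENNReal.ofReal (∫ x in S, ‖w x‖ ^ 2) :=
    (ofReal_integral_eq_lintegral_ofReal (hi2.mono_set hSB)
      (Eventually.of_forall fun x => sq_nonneg _)).symm
  have hr : ∫⁻ x in Bo z r, F x = ENNReal.ofReal (∫ x in Bo z r, ‖pd 0 w x‖ ^ 2) :=
    (ofReal_integral_eq_lintegral_ofReal hid
      (Eventually.of_forall fun x => sq_nonneg _)).symm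
  have hn : 0 ≤ ∫ x in Bo z r, ‖pd 0 w x‖ ^ 2 := integral_nonneg fun x => sq_nonneg _
  rw [hl, hGi, hr, ← ENNReal.ofReal_mul hn, ← ENNReal.ofReal_mul he.le,
    ENNReal.ofReal_le_ofReal_iff (mul_nonneg he.le (mul_nonneg hn he.le))] at hmain
  calc _ ≤ _ := hmain
    _ = _ := by ring

/-- **RowTR** -/
theorem rowTR : RowTR := by
  intro n N _ z r hz w c hw hw0 hi hc hic hlim e he
  have hBo := Bo_open (n := n) z r
  have hBH := Bo_Hs (n := n) z r
  have hwo : ∀ k, ContDiffOn ℝ ∞ (w k) (Bo z r) := fun k => (hw k).mono (Bo_sub z r)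
  have hDr := linInt_relOpen hBo hBH
  have hp := fun k => h1_parts hBo hBH (hwo k) (hi k)
  have hpc := h1_parts hBo hBH hc hic
  have hpd : ∀ k j, ∀ x ∈ Bo z r, pd j (fun x => w k x - c x) x = pd j (w k) x - pd j c x :=
    fun k j x hx => hDr.pd_sub (hwo k) hc hx j
  have hm : ∀ k j, MemLp (pd j (fun x => w k x - c x)) 2 (volume.restrict (Bo z r)) := by
    intro k j
    refine (((hp k).2 j).sub (hpc.2 j)).ae_eq ?_
    filter_upwards [ae_restrict_mem hBo.measurableSet] with x hx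
    rw [hpd k j x hx, Pi.sub_apply]
  have hH : ∀ k, H1 (Bo z r) (fun x => w k x - c x) = (∫ x in Bo z r, ‖w k x - c x‖ ^ 2) +
      ∑ j, ∫ x in Bo z r, ‖pd j (w k) x - pd j c x‖ ^ 2 := by
    intro k
    rw [(h1_of_parts (c := fun x => w k x - c x) ((hp k).1.sub hpc.1) (hm k)).2]
    congr 1
    refine Finset.sum_congr rfl fun j _ => ?_
    exact setIntegral_congr_fun hBo.measurableSet fun x hx => by
      simp only [hpd k j x hx]
  have n1 : ∀ k, 0 ≤ ∫ x in Bo z r, ‖w k x - c x‖ ^ 2 := fun k =>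
    integral_nonneg fun x => sq_nonneg _
  have n2 : ∀ k j, 0 ≤ ∫ x in Bo z r, ‖pd j (w k) x - pd j c x‖ ^ 2 := fun k j =>
    integral_nonneg fun x => sq_nonneg _
  have l1 : Tendsto (fun k => ∫ x in Bo z r, ‖w k x - c x‖ ^ 2) atTop (𝓝 0) := by
    refine squeeze_zero n1 (fun k => ?_) hlim
    rw [hH]
    exact le_add_of_nonneg_right (Finset.sum_nonneg fun j _ => n2 k j)
  have l2 : ∀ j, Tendsto (fun k => ∫ x in Bo z r, ‖pd j (w k) x - pd j c x‖ ^ 2)
      atTop (𝓝 0) := by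
    intro j
    refine squeeze_zero (fun k => n2 k j) (fun k => ?_) hlim
    rw [hH]
    have h2 := Finset.single_le_sum (f := fun j => ∫ x in Bo z r, ‖pd j (w k) x - pd j c x‖ ^ 2)
      (fun j _ => n2 k j) (Finset.mem_univ j)
    have h3 := n1 k
    linarith
  have hSB : Bo z r ∩ {x : E n | x 0 < e} ⊆ Bo z r := inter_subset_left
  have t1 : Tendsto (fun k => ∫ x in Bo z r ∩ {x | x 0 < e}, ‖w k x‖ ^ 2) atTop
      (𝓝 (∫ x in Bo z r ∩ {x | x 0 < e}, ‖c x‖ ^ 2)) := by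
    refine tendsto_sq (fun k => (hp k).1.mono_measure (Measure.restrict_mono hSB le_rfl))
      (hpc.1.mono_measure (Measure.restrict_mono hSB le_rfl)) ?_
    refine squeeze_zero (fun k => integral_nonneg fun x => sq_nonneg _) (fun k => ?_) l1
    refine setIntegral_mono_set ?_ (Eventually.of_forall fun x => sq_nonneg _)
      hSB.eventuallyLE
    exact (memLp_two_iff_integrable_sq_norm ((hp k).1.sub hpc.1).1).1 ((hp k).1.sub hpc.1)
  have t2 : Tendsto (fun k => (∫ x in Bo z r, ‖pd 0 (w k) x‖ ^ 2) * e ^ 2) atTop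
      (𝓝 ((∫ x in Bo z r, ‖pd 0 c x‖ ^ 2) * e ^ 2)) :=
    (tendsto_sq (fun k => (hp k).2 0) (hpc.2 0) (l2 0)).mul_const _
  have hle := le_of_tendsto_of_tendsto' t1 t2 fun k => tr_est hz (hw k) (hw0 k)
    ((memLp_two_iff_integrable_sq_norm (hp k).1.1).1 (hp k).1)
    ((memLp_two_iff_integrable_sq_norm ((hp k).2 0).1).1 ((hp k).2 0)) he
  refine hle.trans (mul_le_mul_of_nonneg_right ?_ (sq_nonneg e))
  rw [(h1_of_parts hpc.1 hpc.2).2]
  have h2 := Finset.single_le_sum (f := fun j => ∫ x in Bo z r, ‖pd j c x‖ ^ 2)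
    (fun j _ => integral_nonneg fun x => sq_nonneg _) (Finset.mem_univ (0 : Fin n))
  have h3 : 0 ≤ ∫ x in Bo z r, ‖c x‖ ^ 2 := integral_nonneg fun x => sq_nonneg _
  linarith

end Vale.Agent.P088.DM.H673
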