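import Vale.Agent.P088.Bdl.B12
import Vale.Agent.P088.R2.H673.DM.L2

/-!
P088, row SOLV, chart half of row 4 (helper673): square integrable functions in charts.
-/

open Bundle Manifold MeasureTheory Set Filter Topology
open scoped ContDiff ENNReal

noncomputable section

namespace Vale.Agent.P088.DM.H673

open Vale.Agent.P088 Vale.Agent.P088.EYM

universe u

set_option linter.unusedSectionVars false

section

variable {n N : ℕ} [NeZero n] {M : Type u} [TopologicalSpace M]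
  [ChartedSpace (EuclideanHalfSpace n) M] [IsManifold (𝓡∂ n) ∞ M] [T2Space M] [CompactSpace M]
  [MeasurableSpace M] [BorelSpace M] (P : One n N M)

theorem chart_ae (p : M) {D : Set (E n)} (hD : MeasurableSet D) (hDt : D ⊆ tg n p) :
    AEMeasurable (xc n p).symm (volume.restrict D) :=
  ((continuousOn_extChartAt_symm p).mono hDt).aemeasurable hD

theorem dens_ae (p : M) {D : Set (E n)} (hD : MeasurableSet D) (hDt : D ⊆ tg n p) :
    AEMeasurable (fun y => ENNReal.ofReal (dens P.g p y)) (volume.restrict D) :=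
  (((contDiffOn_dens P.g p).continuousOn.mono hDt).aemeasurable hD).ennreal_ofReal

theorem chart_ac (p : M) {D : Set (E n)} (hD : MeasurableSet D) (hDt : D ⊆ tg n p) :
    volume.restrict D ≪ (volume.restrict D).withDensity
      (fun y => ENNReal.ofReal (dens P.g p y)) := by
  refine withDensity_absolutelyContinuous' (dens_ae P p hD hDt) ?_
  rw [ae_restrict_iff' hD]
  exact Eventually.of_forall fun y hy => by
    have := dens_pos P.g (hDt hy)
    simpa using this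

/-- measurable in charts -/
theorem lu_meas (p : M) {D : Set (E n)} (hD : MeasurableSet D) (hDt : D ⊆ tg n p)
    {v : M → Fib N} (hv : AEStronglyMeasurable v P.μ) :
    AEStronglyMeasurable (lu (𝓡∂ n) p v) (volume.restrict D) := by
  have h1 : AEStronglyMeasurable v (P.μ.restrict ((xc n p).symm '' D)) := hv.restrict
  rw [cInt_restrict P.hμ p hD hDt] at h1
  have h2 : AEStronglyMeasurable (fun y => v ((xc n p).symm y))
      ((volume.restrict D).withDensity (fun y => ENNReal.ofReal (dens P.g p y))) :=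
    h1.comp_aemeasurable
      ((chart_ae p hD hDt).mono_ac (withDensity_absolutelyContinuous _ _))
  exact h2.mono_ac (chart_ac P p hD hDt)

/-- null sets in charts -/
theorem lu_ae (p : M) {D : Set (E n)} (hD : MeasurableSet D) (hDt : D ⊆ tg n p)
    {q : M → Prop} (hq : ∀ᵐ x ∂P.μ, q x) : ∀ᵐ y ∂(volume.restrict D), q ((xc n p).symm y) := by
  have h1 : ∀ᵐ x ∂(P.μ.restrict ((xc n p).symm '' D)), q x := ae_restrict_of_ae hq
  rw [cInt_restrict P.hμ p hD hDt] at h1
  exact (chart_ac P p hD hDt).ae_le (ae_of_ae_map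
    ((chart_ae p hD hDt).mono_ac (withDensity_absolutelyContinuous _ _)) h1)

/-- the square integral in a chart -/
theorem lu_lint (p : M) {C : Set (E n)} (hC : IsCompact C) (hCt : C ⊆ tg n p) :
    ∃ b : ℝ, 0 < b ∧ ∀ D : Set (E n), MeasurableSet D → D ⊆ C → ∀ v : M → Fib N,
      AEStronglyMeasurable v P.μ →
      ∫⁻ y in D, ‖lu (𝓡∂ n) p v y‖ₑ ^ 2 ≤ ENNReal.ofReal b * ∫⁻ x, ‖v x‖ₑ ^ 2 ∂P.μ := by
  obtain ⟨a, ha, hal⟩ : ∃ a : ℝ, 0 < a ∧ ∀ y ∈ C, a ≤ dens P.g p y := by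
    rcases C.eq_empty_or_nonempty with h0 | hne
    · refine ⟨1, one_pos, fun x hx => ?_⟩
      rw [h0] at hx
      exact absurd hx (notMem_empty x)
    · obtain ⟨y0, hy0, hmin⟩ := hC.exists_isMinOn hne
        ((contDiffOn_dens P.g p).continuousOn.mono hCt)
      exact ⟨_, dens_pos P.g (hCt hy0), fun y hy => isMinOn_iff.1 hmin y hy⟩
  refine ⟨a⁻¹, by positivity, fun D hD hDC v hv => ?_⟩
  have hDt := hDC.trans hCt
  have hle : ∫⁻ y in D, ENNReal.ofReal (dens P.g p y) * ‖lu (𝓡∂ n) p v y‖ₑ ^ 2 ≤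
      ∫⁻ x, ‖v x‖ₑ ^ 2 ∂P.μ := by
    have h1 : ∫⁻ x in (xc n p).symm '' D, ‖v x‖ₑ ^ 2 ∂P.μ =
        ∫⁻ y in D, ENNReal.ofReal (dens P.g p y) * ‖lu (𝓡∂ n) p v y‖ₑ ^ 2 := by
      have hvr : AEMeasurable (fun x => ‖v x‖ₑ ^ 2) (P.μ.restrict ((xc n p).symm '' D)) :=
        (hv.restrict.enorm).pow_const 2
      rw [cInt_restrict P.hμ p hD hDt] at hvr ⊢
      rw [lintegral_map' hvr
        ((chart_ae p hD hDt).mono_ac (withDensity_absolutelyContinuous _ _))]
      exact lintegral_withDensity_eq_lintegral_mul₀ (dens_ae P p hD hDt)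
        (((lu_meas P p hD hDt hv).enorm).pow_const 2)
    rw [← h1]
    exact setLIntegral_le_lintegral _ _
  calc ∫⁻ y in D, ‖lu (𝓡∂ n) p v y‖ₑ ^ 2
      ≤ ∫⁻ y in D, ENNReal.ofReal a⁻¹ *
        (ENNReal.ofReal (dens P.g p y) * ‖lu (𝓡∂ n) p v y‖ₑ ^ 2) := by
        refine lintegral_mono_ae ((ae_restrict_iff' hD).2 (Eventually.of_forall fun y hy => ?_))
        rw [← mul_assoc, ← ENNReal.ofReal_mul (by positivity)]
        have h2 : (1 : ℝ≥0∞) ≤ ENNReal.ofReal (a⁻¹ * dens P.g p y) := by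
          rw [← ENNReal.ofReal_one]
          refine ENNReal.ofReal_le_ofReal ?_
          rw [← div_eq_inv_mul, le_div_iff₀ ha, one_mul]
          exact hal y (hDC hy)
        calc ‖lu (𝓡∂ n) p v y‖ₑ ^ 2 = 1 * ‖lu (𝓡∂ n) p v y‖ₑ ^ 2 := (one_mul _).symm
          _ ≤ _ := by gcongr
    _ = ENNReal.ofReal a⁻¹ * ∫⁻ y in D, ENNReal.ofReal (dens P.g p y) *
        ‖lu (𝓡∂ n) p v y‖ₑ ^ 2 := lintegral_const_mul' _ _ ENNReal.ofReal_ne_top
    _ ≤ _ := by gcongr

end

theorem lint_sq {α : Type*} [MeasurableSpace α] {μ : Measure α} {F : Type*}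
    [NormedAddCommGroup F] {f : α → F} (hf : Integrable (fun x => ‖f x‖ ^ 2) μ) :
    ∫⁻ x, ‖f x‖ₑ ^ 2 ∂μ = ENNReal.ofReal (∫ x, ‖f x‖ ^ 2 ∂μ) := by
  rw [ofReal_integral_eq_lintegral_ofReal hf (Eventually.of_forall fun x => by positivity)]
  refine lintegral_congr fun x => ?_
  rw [ENNReal.ofReal_pow (norm_nonneg _), ofReal_norm]

theorem memLp_of_sq {α : Type*} [MeasurableSpace α] {μ : Measure α} {F : Type*}
    [NormedAddCommGroup F] {f : α → F} (hm : AEStronglyMeasurable f μ)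
    (hf : Integrable (fun x => ‖f x‖ ^ 2) μ) : MemLp f 2 μ :=
  (memLp_two_iff_integrable_sq_norm hm).2 hf

section

variable {n N : ℕ} [NeZero n] {M : Type u} [TopologicalSpace M]
  [ChartedSpace (EuclideanHalfSpace n) M] [IsManifold (𝓡∂ n) ∞ M] [T2Space M] [CompactSpace M]
  [MeasurableSpace M] [BorelSpace M] (P : One n N M)

/-- square integrable functions are square integrable in charts -/
theorem lu_sq (p : M) {C : Set (E n)} (hC : IsCompact C) (hCt : C ⊆ tg n p) :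
    ∃ b : ℝ, 0 < b ∧ ∀ D : Set (E n), MeasurableSet D → D ⊆ C → ∀ v : M → Fib N,
      AEStronglyMeasurable v P.μ → Integrable (fun x => ‖v x‖ ^ 2) P.μ →
      IntegrableOn (fun y => ‖lu (𝓡∂ n) p v y‖ ^ 2) D ∧
      ∫ y in D, ‖lu (𝓡∂ n) p v y‖ ^ 2 ≤ b * ∫ x, ‖v x‖ ^ 2 ∂P.μ := by
  obtain ⟨b, hb, h⟩ := lu_lint P p hC hCt
  refine ⟨b, hb, fun D hD hDC v hv hv2 => ?_⟩
  have h1 := h D hD hDC v hv
  rw [lint_sq hv2, ← ENNReal.ofReal_mul hb.le] at h1
  have hm := lu_meas P p hD (hDC.trans hCt) hv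
  have hi : IntegrableOn (fun y => ‖lu (𝓡∂ n) p v y‖ ^ 2) D := by
    refine ⟨(hm.norm.pow 2), ?_⟩
    rw [hasFiniteIntegral_iff_enorm]
    refine lt_of_le_of_lt ?_ (lt_of_le_of_lt h1 ENNReal.ofReal_lt_top)
    refine lintegral_mono fun y => ?_
    simp only [enorm_pow, enorm_norm]
    exact le_rfl
  refine ⟨hi, ?_⟩
  rw [lint_sq hi] at h1
  exact (ENNReal.ofReal_le_ofReal_iff (mul_nonneg hb.le (integral_nonneg fun x => by
    positivity))).1 h1

end

end Vale.Agent.P088.DM.H673
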